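import Mathlib

open scoped ContDiff Topology
open Finset Filter

namespace Vale.Agent.P080

variable {d : ℕ}

/-- The partial derivative `∂_i φ (x)`. -/
noncomputable def gradC (φ : (Fin d → ℝ) → ℝ) (x : Fin d → ℝ) (i : Fin d) : ℝ :=
  fderiv ℝ φ x (Pi.single i 1)

/-- The second partial derivative `∂_i ∂_j φ (x)`. -/
noncomputable def hessC (φ : (Fin d → ℝ) → ℝ) (x : Fin d → ℝ) (i j : Fin d) : ℝ :=
  fderiv ℝ (fun y => fderiv ℝ φ y (Pi.single j 1)) x (Pi.single i 1)

/-- The infinity Laplacian `∑ φ_i φ_j φ_ij`. -/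
noncomputable def infLaplacian (φ : (Fin d → ℝ) → ℝ) (x : Fin d → ℝ) : ℝ :=
  ∑ i, ∑ j, gradC φ x i * gradC φ x j * hessC φ x i j

/-- `u` is infinity-harmonic on `ℝ^d`: a continuous viscosity solution of `Δ_∞ u = 0`. -/
def IsInfinityHarmonic (u : (Fin d → ℝ) → ℝ) : Prop :=
  Continuous u ∧ ∀ φ : (Fin d → ℝ) → ℝ, ContDiff ℝ 2 φ → ∀ z,
    (IsLocalMax (fun x => u x - φ x) z → 0 ≤ infLaplacian φ z) ∧
    (IsLocalMin (fun x => u x - φ x) z → infLaplacian φ z ≤ 0)

/-- The infinity Laplacian of a separated quadratic polynomial. -/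
lemma infLaplacian_quadratic (A B : Fin d → ℝ) (z : Fin d → ℝ) :
    infLaplacian (fun x => ∑ i, (A i * x i ^ 2 + B i * x i)) z
      = ∑ i, (2 * A i * z i + B i) ^ 2 * (2 * A i) := by
  set φ : (Fin d → ℝ) → ℝ := fun x => ∑ i, (A i * x i ^ 2 + B i * x i) with hφ
  have hq : ∀ i (s : ℝ), HasDerivAt (fun s : ℝ => A i * s ^ 2 + B i * s) (2 * A i * s + B i) s := by
    intro i s
    have h1 : HasDerivAt (fun t : ℝ => t ^ 2) (2 * s) s := by
      simpa using hasDerivAt_pow 2 s
    have h3 : HasDerivAt (fun s : ℝ => A i * s ^ 2 + B i * s) (A i * (2 * s) + B i * 1) s :=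
      (h1.const_mul (A i)).add ((hasDerivAt_id' s).const_mul (B i))
    have e : A i * (2 * s) + B i * 1 = 2 * A i * s + B i := by ring
    rw [← e]
    exact h3
  have h1 : ∀ y j, fderiv ℝ φ y (Pi.single j 1) = 2 * A j * y j + B j := by
    intro y j
    have h2 : HasFDerivAt φ (∑ i, (2 * A i * y i + B i) • ContinuousLinearMap.proj (R := ℝ)
        (φ := fun _ : Fin d => ℝ) i) y := by
      apply HasFDerivAt.fun_sum
      intro i _
      have h0 : HasDerivAt (fun s : ℝ => A i * s ^ 2 + B i * s) (2 * A i * y i + B i)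
          ((ContinuousLinearMap.proj (R := ℝ) (φ := fun _ : Fin d => ℝ) i) y) := hq i (y i)
      exact h0.comp_hasFDerivAt y (ContinuousLinearMap.proj (R := ℝ)
          (φ := fun _ : Fin d => ℝ) i).hasFDerivAt
    rw [h2.fderiv]
    simp [Pi.single_apply]
  have h2 : ∀ i j, hessC φ z i j = if i = j then 2 * A j else 0 := by
    intro i j
    unfold hessC
    have h3 : (fun y => fderiv ℝ φ y (Pi.single j 1)) = fun y : Fin d → ℝ => 2 * A j * y j + B j := by
      funext y
      exact h1 y j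
    rw [h3]
    have h4 : HasFDerivAt (fun y : Fin d → ℝ => 2 * A j * y j + B j)
        ((2 * A j) • ContinuousLinearMap.proj (R := ℝ) (φ := fun _ : Fin d => ℝ) j) z := by
      have h5 : HasFDerivAt (fun y : Fin d → ℝ => y j)
          (ContinuousLinearMap.proj (R := ℝ) (φ := fun _ : Fin d => ℝ) j) z :=
        (ContinuousLinearMap.proj (R := ℝ) (φ := fun _ : Fin d => ℝ) j).hasFDerivAt
      exact (h5.const_mul (2 * A j)).add_const (B j)
    rw [h4.fderiv]
    by_cases hij : i = j
    · subst hij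
      simp
    · simp [hij, Ne.symm hij]
  unfold infLaplacian gradC
  apply Finset.sum_congr rfl
  intro i _
  rw [Finset.sum_eq_single i]
  · rw [h1, h2, if_pos rfl]
    ring
  · intro j _ hj
    rw [h2]
    simp [Ne.symm hj]
  · simp

lemma quadratic_contDiff (A B : Fin d → ℝ) :
    ContDiff ℝ 2 (fun x : Fin d → ℝ => ∑ i, (A i * x i ^ 2 + B i * x i)) := by
  apply ContDiff.sum
  intro i _
  have h : ContDiff ℝ 2 (fun x : Fin d → ℝ => x i) := contDiff_apply ℝ ℝ i
  exact (contDiff_const.mul (h.pow 2)).add (contDiff_const.mul h)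

/-- Sliding a parabola from below. -/
lemma exists_touch_below {f : ℝ → ℝ} (hf : Continuous f) :
    ∃ M t : ℝ, 0 ≤ M ∧ IsLocalMin (fun s => f s + M * s ^ 2) t := by
  obtain ⟨C, hC⟩ := (isCompact_Icc (a := (-1 : ℝ)) (b := 1)).exists_bound_of_continuousOn
    hf.continuousOn
  have hC0 : 0 ≤ C := le_trans (norm_nonneg _) (hC 0 (by norm_num))
  set M := 2 * C + 1 with hM
  have hg : ContinuousOn (fun s => f s + M * s ^ 2) (Set.Icc (-1 : ℝ) 1) :=
    (hf.add (continuous_const.mul (continuous_pow 2))).continuousOn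
  obtain ⟨t, ht, hmin⟩ := (isCompact_Icc (a := (-1 : ℝ)) (b := 1)).exists_isMinOn
    ⟨0, by norm_num⟩ hg
  refine ⟨M, t, by positivity, ?_⟩
  have h0 : (0 : ℝ) ∈ Set.Icc (-1 : ℝ) 1 := by norm_num
  have h1 : f t + M * t ^ 2 ≤ f 0 + M * 0 ^ 2 := hmin h0
  have h2 : |f 0| ≤ C := by simpa using hC 0 h0
  have h3 : |f t| ≤ C := by simpa using hC t ht
  have hf0 := (abs_le.mp h2).2
  have hft := (abs_le.mp h3).1
  have ht2 : t ^ 2 < 1 := by
    have : M * t ^ 2 ≤ 2 * C := by nlinarith
    nlinarith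
  have hIoo : t ∈ Set.Ioo (-1 : ℝ) 1 := by
    constructor <;> nlinarith
  have hnhds : Set.Icc (-1 : ℝ) 1 ∈ 𝓝 t :=
    mem_of_superset (Ioo_mem_nhds hIoo.1 hIoo.2) Set.Ioo_subset_Icc_self
  exact hmin.isLocalMin hnhds

/-- A convex kink can be touched from below with arbitrarily large curvature. -/
lemma kink_touch {f : ℝ → ℝ} {t₀ a b c N : ℝ}
    (hr : HasDerivWithinAt f b (Set.Ioi t₀) t₀) (hl : HasDerivWithinAt f a (Set.Iio t₀) t₀)
    (hac : a < c) (hcb : c < b) (hN : 0 < N) :
    IsLocalMin (fun s => f s - (N * s ^ 2 + (c - 2 * N * t₀) * s)) t₀ := by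
  set δ := min (b - c) (c - a) / 2 with hδ
  have hδ0 : 0 < δ := by
    have : 0 < min (b - c) (c - a) := lt_min (by linarith) (by linarith)
    positivity
  have hδb : δ ≤ (b - c) / 2 := by
    have := min_le_left (b - c) (c - a)
    rw [hδ]
    linarith
  have hδa : δ ≤ (c - a) / 2 := by
    have := min_le_right (b - c) (c - a)
    rw [hδ]
    linarith
  have h1 := hr.isLittleO.def (show 0 < δ from hδ0)
  have h2 := hl.isLittleO.def (show 0 < δ from hδ0)
  rw [eventually_nhdsWithin_iff] at h1 h2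
  have hnear : ∀ᶠ s in 𝓝 t₀, |s - t₀| < δ / N := by
    have : Metric.ball t₀ (δ / N) ∈ 𝓝 t₀ := Metric.ball_mem_nhds _ (by positivity)
    filter_upwards [this] with s hs
    rwa [Metric.mem_ball, Real.dist_eq] at hs
  unfold IsLocalMin IsMinFilter
  filter_upwards [h1, h2, hnear] with s hs1 hs2 hs3
  have hkey : ∀ x : ℝ, f x - (N * x ^ 2 + (c - 2 * N * t₀) * x) - (f t₀ - (N * t₀ ^ 2 + (c - 2 * N * t₀) * t₀))
      = (f x - f t₀ - c * (x - t₀)) - N * (x - t₀) ^ 2 := by
    intro x
    ring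
  have hgoal : 0 ≤ (f s - f t₀ - c * (s - t₀)) - N * (s - t₀) ^ 2 := by
    have hsq : N * (s - t₀) ^ 2 ≤ δ * |s - t₀| := by
      have h3 : N * |s - t₀| ≤ δ := by
        have := (lt_div_iff₀ hN).mp hs3
        linarith
      have h4 : (s - t₀) ^ 2 = |s - t₀| * |s - t₀| := by
        rw [abs_mul_abs_self]
        ring
      rw [h4]
      have h5 := abs_nonneg (s - t₀)
      nlinarith
    rcases lt_trichotomy s t₀ with hlt | heq | hgt
    · have h6 := hs2 hlt
      rw [Real.norm_eq_abs, Real.norm_eq_abs] at h6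
      simp only [smul_eq_mul] at h6
      have h7 := (abs_le.mp h6).1
      have habs : |s - t₀| = t₀ - s := by
        rw [abs_of_neg (by linarith)]
        ring
      rw [habs] at h6 hsq h7
      have h8 : 0 ≤ (t₀ - s) * (c - a - 2 * δ) :=
        mul_nonneg (by linarith) (by linarith)
      nlinarith
    · subst heq
      simp
    · have h6 := hs1 hgt
      rw [Real.norm_eq_abs, Real.norm_eq_abs] at h6
      simp only [smul_eq_mul] at h6
      have h7 := (abs_le.mp h6).1
      have habs : |s - t₀| = s - t₀ := abs_of_pos (by linarith)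
      rw [habs] at h6 hsq h7
      have h8 : 0 ≤ (s - t₀) * (b - c - 2 * δ) :=
        mul_nonneg (by linarith) (by linarith)
      nlinarith
  have := hkey s
  linarith

/-- The subsolution property in separated form. -/
def SepSub (f : Fin d → ℝ → ℝ) : Prop :=
  ∀ (A B z : Fin d → ℝ),
    (∀ i, IsLocalMin (fun s => f i s - (A i * s ^ 2 + B i * s)) (z i)) →
      ∑ i, (2 * A i * z i + B i) ^ 2 * (2 * A i) ≤ 0

/-- No convex kink for separated subsolutions. -/
lemma no_convex_kink (f : Fin d → ℝ → ℝ) (hf : ∀ i, Continuous (f i)) (hS : SepSub f)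
    (i₀ : Fin d) {t₀ a b : ℝ} (hr : HasDerivWithinAt (f i₀) b (Set.Ioi t₀) t₀)
    (hl : HasDerivWithinAt (f i₀) a (Set.Iio t₀) t₀) (hab : a < b) : False := by
  classical
  -- choose a nonzero slope
  obtain ⟨c, hac, hcb, hc0⟩ : ∃ c, a < c ∧ c < b ∧ c ≠ 0 := by
    by_cases h : (a + b) / 2 = 0
    · refine ⟨b / 2, ?_, ?_, ?_⟩
      · linarith
      · linarith
      · intro h'
        linarith
    · exact ⟨(a + b) / 2, by linarith, by linarith, h⟩
  choose M t hM hloc using fun i => exists_touch_below (hf i)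
  set K := ∑ i ∈ univ.erase i₀, (2 * (-(M i)) * t i) ^ 2 * (2 * M i) with hK
  have hK0 : 0 ≤ K := Finset.sum_nonneg fun i _ => mul_nonneg (sq_nonneg _) (by linarith [hM i])
  have hcsq : 0 < c ^ 2 := by positivity
  set N := (K + 1) / (2 * c ^ 2) with hN
  have hNpos : 0 < N := by positivity
  have h1 := hS (fun i => if i = i₀ then N else -(M i))
    (fun i => if i = i₀ then c - 2 * N * t₀ else 0)
    (fun i => if i = i₀ then t₀ else t i) (by
      intro i
      by_cases hi : i = i₀
      · subst hi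
        simp only [if_true]
        exact kink_touch hr hl hac hcb hNpos
      · simp only [hi, if_false]
        have := hloc i
        simpa [sub_eq_add_neg, add_comm] using this)
  rw [← Finset.add_sum_erase univ _ (mem_univ i₀)] at h1
  simp only [if_true] at h1
  have h2 : ∑ i ∈ univ.erase i₀, (2 * (if i = i₀ then N else -(M i)) * (if i = i₀ then t₀ else t i)
      + (if i = i₀ then c - 2 * N * t₀ else 0)) ^ 2 * (2 * (if i = i₀ then N else -(M i))) = -K := by
    rw [hK, ← Finset.sum_neg_distrib]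
    apply Finset.sum_congr rfl
    intro i hi
    have hne : i ≠ i₀ := Finset.ne_of_mem_erase hi
    simp only [hne, if_false]
    ring
  rw [h2] at h1
  have h3 : (2 * N * t₀ + (c - 2 * N * t₀)) ^ 2 * (2 * N) = K + 1 := by
    have : 2 * N * t₀ + (c - 2 * N * t₀) = c := by ring
    rw [this, hN]
    field_simp
  rw [h3] at h1
  linarith

lemma sepSub_of_harmonic (f : Fin d → ℝ → ℝ)
    (hu : IsInfinityHarmonic (fun x : Fin d → ℝ => ∑ i, f i (x i))) : SepSub f := by
  intro A B z hloc
  rw [← infLaplacian_quadratic]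
  apply ((hu.2 _ (quadratic_contDiff A B) z).2)
  have h1 : ∀ i, ∀ᶠ x : Fin d → ℝ in 𝓝 z, f i (z i) - (A i * z i ^ 2 + B i * z i)
      ≤ f i (x i) - (A i * x i ^ 2 + B i * x i) := by
    intro i
    have h2 : Tendsto (fun x : Fin d → ℝ => x i) (𝓝 z) (𝓝 (z i)) :=
      (continuous_apply i).tendsto z
    exact h2.eventually (hloc i)
  have h3 := eventually_all.mpr h1
  unfold IsLocalMin IsMinFilter
  filter_upwards [h3] with x hx
  have h4 := Finset.sum_le_sum (fun i (_ : i ∈ (univ : Finset (Fin d))) => hx i)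
  simp only [Finset.sum_sub_distrib] at h4 ⊢
  linarith

lemma sepSub_neg_of_harmonic (f : Fin d → ℝ → ℝ)
    (hu : IsInfinityHarmonic (fun x : Fin d → ℝ => ∑ i, f i (x i))) :
    SepSub (fun i s => - f i s) := by
  intro A B z hloc
  have h0 : IsLocalMax (fun x : Fin d → ℝ => (∑ i, f i (x i))
      - ∑ i, ((-(A i)) * x i ^ 2 + (-(B i)) * x i)) z := by
    have h1 : ∀ i, ∀ᶠ x : Fin d → ℝ in 𝓝 z, - f i (z i) - (A i * z i ^ 2 + B i * z i)
        ≤ - f i (x i) - (A i * x i ^ 2 + B i * x i) := by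
      intro i
      have h2 : Tendsto (fun x : Fin d → ℝ => x i) (𝓝 z) (𝓝 (z i)) :=
        (continuous_apply i).tendsto z
      exact h2.eventually (hloc i)
    have h3 := eventually_all.mpr h1
    unfold IsLocalMax IsMaxFilter
    filter_upwards [h3] with x hx
    have h4 := Finset.sum_le_sum (fun i (_ : i ∈ (univ : Finset (Fin d))) => hx i)
    simp only [Finset.sum_sub_distrib, Finset.sum_neg_distrib, Finset.sum_add_distrib,
      neg_mul] at h4 ⊢
    linarith
  have h5 := (hu.2 _ (quadratic_contDiff (fun i => -(A i)) (fun i => -(B i))) z).1 h0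
  rw [infLaplacian_quadratic] at h5
  have h6 : ∑ i, (2 * (-(A i)) * z i + (-(B i))) ^ 2 * (2 * (-(A i)))
      = - ∑ i, (2 * A i * z i + B i) ^ 2 * (2 * A i) := by
    rw [← Finset.sum_neg_distrib]
    apply Finset.sum_congr rfl
    intro i _
    ring
  rw [h6] at h5
  linarith

/-- A separated infinity-harmonic function has no gradient jump: at any point where the left and
right derivatives of a summand exist, they coincide. -/
theorem no_kink (f : Fin d → ℝ → ℝ) (hf : ∀ i, Continuous (f i))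
    (hu : IsInfinityHarmonic (fun x : Fin d → ℝ => ∑ i, f i (x i))) (i₀ : Fin d) {t₀ a b : ℝ}
    (hr : HasDerivWithinAt (f i₀) b (Set.Ioi t₀) t₀)
    (hl : HasDerivWithinAt (f i₀) a (Set.Iio t₀) t₀) : a = b := by
  rcases lt_trichotomy a b with h | h | h
  · exact (no_convex_kink f hf (sepSub_of_harmonic f hu) i₀ hr hl h).elim
  · exact h
  · exact (no_convex_kink (fun i s => - f i s) (fun i => (hf i).neg)
      (sepSub_neg_of_harmonic f hu) i₀ hr.neg hl.neg (by linarith)).elim

end Vale.Agent.P080
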