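import Mathlib

/-!
Additively separated infinity-harmonic functions.
-/

open Set Filter Topology

namespace Vale.Agent.P080

/-- The infinity Laplacian of a function on `ℝ^d`, in coordinates: `∑ i j, φ_i φ_j φ_ij`. -/
noncomputable def infLap {d : ℕ} (φ : (Fin d → ℝ) → ℝ) (z : Fin d → ℝ) : ℝ :=
  ∑ i, ∑ j, fderiv ℝ φ z (Pi.single i 1) * fderiv ℝ φ z (Pi.single j 1) *
    fderiv ℝ (fun y => fderiv ℝ φ y (Pi.single i 1)) z (Pi.single j 1)

/-- `u` is infinity-harmonic on `Ω`: continuous, and a viscosity solution of the infinity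
Laplace equation, tested against all `C²` functions. -/
def IsInfinityHarmonic {d : ℕ} (Ω : Set (Fin d → ℝ)) (u : (Fin d → ℝ) → ℝ) : Prop :=
  ContinuousOn u Ω ∧ ∀ φ : (Fin d → ℝ) → ℝ, ContDiff ℝ 2 φ → ∀ z ∈ Ω,
    (IsLocalMax (fun x => u x - φ x) z → 0 ≤ infLap φ z) ∧
    (IsLocalMin (fun x => u x - φ x) z → infLap φ z ≤ 0)

/-- Quadratic test polynomials in one variable. -/
noncomputable def Q (x₀ p κ y : ℝ) : ℝ := p * (y - x₀) + κ * (y - x₀) ^ 2 / 2

/-- The one-dimensional infinity Laplacian of `Q x₀ p κ` at `z`. -/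
noncomputable def Val (x₀ p κ z : ℝ) : ℝ := (p + κ * (z - x₀)) ^ 2 * κ

lemma Q_hasDerivAt (x₀ p κ y : ℝ) : HasDerivAt (Q x₀ p κ) (p + κ * (y - x₀)) y := by
  unfold Q
  have h1 : HasDerivAt (fun t : ℝ => t - x₀) 1 y := (hasDerivAt_id y).sub_const x₀
  have h2 := (h1.const_mul p)
  have h3 := ((h1.pow 2).const_mul κ).div_const 2
  have h4 := h2.fun_add h3
  refine h4.congr_deriv ?_
  simp only [Nat.cast_ofNat, Nat.add_one_sub_one, pow_one, mul_one]
  field_simp

/-- Upper touching bound. -/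
def UpAt (a : ℝ → ℝ) (I : Set ℝ) (A : ℝ) : Prop :=
  ∀ x₀ p κ z, z ∈ I → IsLocalMax (fun y => a y - Q x₀ p κ y) z → A ≤ Val x₀ p κ z

/-- Lower touching bound. -/
def LoAt (a : ℝ → ℝ) (I : Set ℝ) (B : ℝ) : Prop :=
  ∀ x₀ p κ z, z ∈ I → IsLocalMin (fun y => a y - Q x₀ p κ y) z → Val x₀ p κ z ≤ B

lemma not_min_left {G : ℝ → ℝ} {d l r : ℝ} (hlr : l < r) (hG : HasDerivAt G d l) (hd : d < 0) :
    ∃ y ∈ Ioc l r, G y < G l := by
  have h1 : ∀ᶠ y in 𝓝[≠] l, slope G l y < 0 :=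
    (hasDerivAt_iff_tendsto_slope.1 hG).eventually (Iio_mem_nhds hd)
  have h2 : ∀ᶠ y in 𝓝[>] l, slope G l y < 0 :=
    h1.filter_mono (nhdsWithin_mono _ (fun y hy => ne_of_gt hy))
  obtain ⟨y, hy1, hy2⟩ := (h2.and (Ioc_mem_nhdsGT hlr)).exists
  refine ⟨y, hy2, ?_⟩
  rw [slope_def_field] at hy1
  have hpos : 0 < y - l := by linarith [hy2.1]
  have := (div_lt_iff₀ hpos).1 hy1
  linarith

lemma not_min_right {G : ℝ → ℝ} {d l r : ℝ} (hlr : l < r) (hG : HasDerivAt G d r) (hd : 0 < d) :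
    ∃ y ∈ Ico l r, G y < G r := by
  have h1 : ∀ᶠ y in 𝓝[≠] r, 0 < slope G r y :=
    (hasDerivAt_iff_tendsto_slope.1 hG).eventually (Ioi_mem_nhds hd)
  have h2 : ∀ᶠ y in 𝓝[<] r, 0 < slope G r y :=
    h1.filter_mono (nhdsWithin_mono _ (fun y hy => ne_of_lt hy))
  obtain ⟨y, hy1, hy2⟩ := (h2.and (Ico_mem_nhdsLT hlr)).exists
  refine ⟨y, hy2, ?_⟩
  rw [slope_def_field] at hy1
  have hneg : y - r < 0 := by linarith [hy2.2]
  have := (lt_div_iff_of_neg hneg).1 hy1
  linarith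

/-- Interior minimum from the signs of the derivative at the end points. -/
lemma interior_min {G G' : ℝ → ℝ} {l r : ℝ} (hlr : l < r)
    (hG : ∀ y ∈ Icc l r, HasDerivAt G (G' y) y) (hl : G' l < 0) (hr : 0 < G' r) :
    ∃ z ∈ Ioo l r, IsLocalMin G z := by
  have hc : ContinuousOn G (Icc l r) := fun y hy => (hG y hy).continuousAt.continuousWithinAt
  obtain ⟨z, hz, hmin⟩ := isCompact_Icc.exists_isMinOn (nonempty_Icc.2 hlr.le) hc
  have hzl : z ≠ l := by
    rintro rfl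
    obtain ⟨y, hy, hlt⟩ := not_min_left hlr (hG z ⟨le_rfl, hlr.le⟩) hl
    exact absurd (hmin ⟨hy.1.le, hy.2⟩) (not_le.2 hlt)
  have hzr : z ≠ r := by
    rintro rfl
    obtain ⟨y, hy, hlt⟩ := not_min_right hlr (hG z ⟨hlr.le, le_rfl⟩) hr
    exact absurd (hmin ⟨hy.1, hy.2.le⟩) (not_le.2 hlt)
  have hz' : z ∈ Ioo l r := ⟨lt_of_le_of_ne hz.1 (Ne.symm hzl), lt_of_le_of_ne hz.2 hzr⟩
  exact ⟨z, hz', hmin.isLocalMin (Icc_mem_nhds hz'.1 hz'.2)⟩

/-- Slope bounds from the lower touching condition. -/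
lemma core_lo {a h : ℝ → ℝ} {I : Set ℝ} (hI : IsOpen I) {B γ x₀ : ℝ} (hx₀ : x₀ ∈ I)
    (hd : ∀ x ∈ I, HasDerivAt a (h x) x) (hL : LoAt a I B) (hγ : B < γ) (κ : ℝ)
    (hκ : h x₀ ^ 2 * κ = γ) :
    ∀ᶠ x in 𝓝 x₀, (x₀ < x → h x ≤ h x₀ + κ * (x - x₀)) ∧ (x < x₀ → h x₀ + κ * (x - x₀) ≤ h x) := by
  set p := h x₀ with hp
  -- continuity of the value
  have hcont : Continuous (fun q : ℝ × ℝ => (p + q.1 + κ * (q.2 - x₀)) ^ 2 * κ) := by fun_prop
  have hval : B < (fun q : ℝ × ℝ => (p + q.1 + κ * (q.2 - x₀)) ^ 2 * κ) (0, x₀) := by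
    simp only [sub_self, mul_zero, add_zero]
    rw [hκ]; exact hγ
  have hev := hcont.continuousAt.eventually (lt_mem_nhds hval)
  obtain ⟨δ₁, hδ₁, hball⟩ := Metric.eventually_nhds_iff.1 hev
  obtain ⟨δ₂, hδ₂, hsub⟩ := Metric.isOpen_iff.1 hI x₀ hx₀
  set δ := min δ₁ δ₂ with hδdef
  have hδ : 0 < δ := lt_min hδ₁ hδ₂
  have hvalB : ∀ ε z : ℝ, |ε| < δ → |z - x₀| < δ → B < (p + ε + κ * (z - x₀)) ^ 2 * κ := by
    intro ε z hε hz
    have hdist : dist ((ε, z) : ℝ × ℝ) (0, x₀) < δ₁ := by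
      rw [Prod.dist_eq]
      refine max_lt ?_ ?_
      · rw [Real.dist_eq, sub_zero]; exact lt_of_lt_of_le hε (min_le_left _ _)
      · rw [Real.dist_eq]; exact lt_of_lt_of_le hz (min_le_left _ _)
    exact hball hdist
  have hmemI : ∀ z : ℝ, |z - x₀| < δ → z ∈ I := by
    intro z hz
    apply hsub
    rw [Metric.mem_ball, Real.dist_eq]
    exact lt_of_lt_of_le hz (min_le_right _ _)
  have hGderiv : ∀ ε y, y ∈ I → HasDerivAt (fun t => a t - Q x₀ (p + ε) κ t)
      (h y - (p + ε + κ * (y - x₀))) y := by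
    intro ε y hy
    exact (hd y hy).sub (Q_hasDerivAt x₀ (p + ε) κ y)
  -- no interior local min of the perturbed difference
  have hnomin : ∀ ε z, |ε| < δ → |z - x₀| < δ → IsLocalMin (fun t => a t - Q x₀ (p + ε) κ t) z →
      False := by
    intro ε z hε hz hmin
    have h1 := hL x₀ (p + ε) κ z (hmemI z hz) hmin
    have h2 := hvalB ε z hε hz
    unfold Val at h1
    linarith
  have hclose : ∀ᶠ x in 𝓝 x₀, |x - x₀| < δ := by
    have := Metric.ball_mem_nhds x₀ hδ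
    filter_upwards [this] with x hx
    rwa [Metric.mem_ball, Real.dist_eq] at hx
  filter_upwards [hclose] with x hx
  constructor
  · intro hxgt
    refine le_of_forall_pos_lt_add ?_
    intro ε' hε'
    -- take ε small
    set ε := min (ε' / 2) (δ / 2) with hεdef
    have hεpos : 0 < ε := lt_min (half_pos hε') (half_pos hδ)
    have hεabs : |ε| < δ := by
      rw [abs_of_pos hεpos]; exact lt_of_le_of_lt (min_le_right _ _) (half_lt_self hδ)
    by_contra hcon
    have hcon := not_lt.1 hcon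
    have hle : ε < ε' := lt_of_le_of_lt (min_le_left _ _) (half_lt_self hε')
    have hsegI : ∀ y ∈ Icc x₀ x, |y - x₀| < δ := by
      intro y hy
      rw [abs_of_nonneg (by linarith [hy.1])]
      rw [abs_of_pos (by linarith)] at hx
      linarith [hy.2]
    obtain ⟨z, hz, hmin⟩ := interior_min (G := fun t => a t - Q x₀ (p + ε) κ t)
      (G' := fun y => h y - (p + ε + κ * (y - x₀))) hxgt
      (fun y hy => hGderiv ε y (hmemI y (hsegI y hy)))
      (by
        show h x₀ - (p + ε + κ * (x₀ - x₀)) < 0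
        have hp' : h x₀ = p := rfl
        rw [hp', sub_self, mul_zero]; linarith)
      (by
        show 0 < h x - (p + ε + κ * (x - x₀))
        linarith)
    exact hnomin ε z hεabs (hsegI z ⟨hz.1.le, hz.2.le⟩) hmin
  · intro hxlt
    refine le_of_forall_pos_lt_add ?_
    intro ε' hε'
    set ε := min (ε' / 2) (δ / 2) with hεdef
    have hεpos : 0 < ε := lt_min (half_pos hε') (half_pos hδ)
    have hεabs : |(-ε)| < δ := by
      rw [abs_neg, abs_of_pos hεpos]; exact lt_of_le_of_lt (min_le_right _ _) (half_lt_self hδ)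
    by_contra hcon
    have hcon := not_lt.1 hcon
    have hle : ε < ε' := lt_of_le_of_lt (min_le_left _ _) (half_lt_self hε')
    have hsegI : ∀ y ∈ Icc x x₀, |y - x₀| < δ := by
      intro y hy
      rw [abs_of_nonpos (by linarith [hy.2])]
      rw [abs_of_neg (by linarith)] at hx
      linarith [hy.1]
    obtain ⟨z, hz, hmin⟩ := interior_min (G := fun t => a t - Q x₀ (p + -ε) κ t)
      (G' := fun y => h y - (p + -ε + κ * (y - x₀))) hxlt
      (fun y hy => hGderiv (-ε) y (hmemI y (hsegI y hy)))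
      (by
        show h x - (p + -ε + κ * (x - x₀)) < 0
        linarith)
      (by
        show 0 < h x₀ - (p + -ε + κ * (x₀ - x₀))
        have hp' : h x₀ = p := rfl
        rw [hp', sub_self, mul_zero]; linarith)
    exact hnomin (-ε) z hεabs (hsegI z ⟨hz.1.le, hz.2.le⟩) hmin

/-- Negation exchanges upper and lower touching. -/
lemma LoAt_neg {a : ℝ → ℝ} {I : Set ℝ} {A : ℝ} (hU : UpAt a I A) :
    LoAt (fun y => - a y) I (-A) := by
  intro x₀ p κ z hz hmin
  have hmax : IsLocalMax (fun y => a y - Q x₀ (-p) (-κ) y) z := by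
    have : (fun y => a y - Q x₀ (-p) (-κ) y) = fun y => -((fun y => - a y - Q x₀ p κ y) y) := by
      funext y; simp only [Q]; ring
    rw [this]
    exact hmin.neg
  have h1 := hU x₀ (-p) (-κ) z hz hmax
  have h2 : Val x₀ (-p) (-κ) z = - Val x₀ p κ z := by simp only [Val]; ring
  rw [h2] at h1
  linarith

/-- Slope bounds from the upper touching condition. -/
lemma core_up {a h : ℝ → ℝ} {I : Set ℝ} (hI : IsOpen I) {A γ x₀ : ℝ} (hx₀ : x₀ ∈ I)
    (hd : ∀ x ∈ I, HasDerivAt a (h x) x) (hU : UpAt a I A) (hγ : γ < A) (κ : ℝ)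
    (hκ : h x₀ ^ 2 * κ = γ) :
    ∀ᶠ x in 𝓝 x₀, (x₀ < x → h x₀ + κ * (x - x₀) ≤ h x) ∧ (x < x₀ → h x ≤ h x₀ + κ * (x - x₀)) := by
  have h1 := core_lo (a := fun y => - a y) (h := fun y => - h y) hI (B := -A) (γ := -γ) hx₀
    (fun x hx => (hd x hx).neg) (LoAt_neg hU) (by linarith) (-κ)
    (by
      show (- h x₀) ^ 2 * (-κ) = -γ
      rw [neg_sq, mul_neg, hκ])
  filter_upwards [h1] with x hx
  constructor
  · intro hlt
    have : - h x ≤ - h x₀ + -κ * (x - x₀) := hx.1 hlt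
    linarith
  · intro hlt
    have : - h x₀ + -κ * (x - x₀) ≤ - h x := hx.2 hlt
    linarith


/-- The derivative at a point where it does not vanish. -/
lemma deriv_of_ne {a h : ℝ → ℝ} {I : Set ℝ} (hI : IsOpen I) {c x₀ : ℝ} (hx₀ : x₀ ∈ I)
    (hd : ∀ x ∈ I, HasDerivAt a (h x) x) (hU : UpAt a I c) (hL : LoAt a I c) (hp : h x₀ ≠ 0) :
    HasDerivAt h (c / h x₀ ^ 2) x₀ := by
  rw [hasDerivAt_iff_isLittleO, Asymptotics.isLittleO_iff]
  intro ε hε
  have hp2 : 0 < h x₀ ^ 2 := by positivity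
  have h1 := core_lo hI (γ := c + ε * h x₀ ^ 2) hx₀ hd hL (by nlinarith [mul_pos hε hp2])
    (c / h x₀ ^ 2 + ε) (by field_simp)
  have h2 := core_up hI (γ := c - ε * h x₀ ^ 2) hx₀ hd hU (by nlinarith [mul_pos hε hp2])
    (c / h x₀ ^ 2 - ε) (by field_simp)
  filter_upwards [h1, h2] with x hx1 hx2
  rw [Real.norm_eq_abs, Real.norm_eq_abs, smul_eq_mul]
  rcases lt_trichotomy x x₀ with hlt | rfl | hgt
  · have a1 := hx1.2 hlt
    have a2 := hx2.2 hlt
    rw [abs_of_neg (by linarith : x - x₀ < 0), abs_le]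
    constructor <;> nlinarith
  · simp
  · have a1 := hx1.1 hgt
    have a2 := hx2.1 hgt
    rw [abs_of_pos (by linarith : 0 < x - x₀), abs_le]
    constructor <;> nlinarith

lemma cube_deriv_of_ne {h : ℝ → ℝ} {c x₀ : ℝ} (hp : h x₀ ≠ 0) (hder : HasDerivAt h (c / h x₀ ^ 2) x₀) :
    HasDerivAt (fun t => h t ^ 3) (3 * c) x₀ := by
  have hne : h x₀ ^ 2 ≠ 0 := pow_ne_zero 2 hp
  have := hder.fun_pow 3
  refine this.congr_deriv ?_
  simp only [Nat.cast_ofNat, Nat.add_one_sub_one]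
  norm_num
  field_simp

lemma const_on_segment {F : ℝ → ℝ} {l r : ℝ} (hlr : l ≤ r) (hF : ∀ x ∈ Icc l r, HasDerivAt F 0 x) :
    F l = F r := by
  rcases eq_or_lt_of_le hlr with rfl | hlt
  · rfl
  obtain ⟨z, _, hz'⟩ := exists_hasDerivAt_eq_slope F (fun _ => 0) hlt
    (fun x hx => (hF x hx).continuousAt.continuousWithinAt)
    (fun x hx => hF x ⟨hx.1.le, hx.2.le⟩)
  have hne : r - l ≠ 0 := by linarith
  have := hz'.symm
  rw [div_eq_zero_iff] at this
  rcases this with h | h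
  · linarith
  · exact absurd h hne

/-- The formula up to the nearest zero of the derivative. -/
lemma J0 {a h : ℝ → ℝ} {c e y : ℝ} (hey : e < y) (hd : ∀ x ∈ Icc e y, HasDerivAt a (h x) x)
    (hS : ∀ x ∈ Ioc e y, h x ≠ 0) (hw : ∀ x ∈ Ioc e y, HasDerivAt (fun t => h t ^ 3) (3 * c) x)
    (he : h e = 0) : h y ^ 3 = 3 * c * (y - e) := by
  have hconst : ∀ t ∈ Ioc e y, h t ^ 3 = h y ^ 3 + 3 * c * (t - y) := by
    intro t ht
    have hF : ∀ x ∈ Icc t y, HasDerivAt (fun s => h s ^ 3 - 3 * c * s) 0 x := by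
      intro x hx
      have h1 := hw x ⟨lt_of_lt_of_le ht.1 hx.1, hx.2⟩
      have h2 := (hasDerivAt_id x).const_mul (3 * c)
      have h3 := h1.fun_sub h2
      refine h3.congr_deriv ?_
      ring
    have : h t ^ 3 - 3 * c * t = h y ^ 3 - 3 * c * y := const_on_segment ht.2 hF
    linarith
  by_contra hne
  set ℓ := h y ^ 3 + 3 * c * (e - y) with hℓ
  have hℓ0 : ℓ ≠ 0 := by
    intro h0
    apply hne
    rw [hℓ] at h0
    linarith
  have hℓpos : 0 < |ℓ| := abs_pos.2 hℓ0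
  have hden : 0 < 4 * (3 * |c| + 1) := by positivity
  set δ := |ℓ| / (4 * (3 * |c| + 1)) with hδdef
  have hδ : 0 < δ := div_pos hℓpos hden
  set t := min y (e + δ) with htdef
  have het : e < t := lt_min hey (by linarith)
  have hty : t ≤ y := min_le_left _ _
  have htδ : t ≤ e + δ := min_le_right _ _
  have hest : ∀ s ∈ Ioc e t, |h s ^ 3 - ℓ| < |ℓ| / 4 := by
    intro s hs
    have h0 := hconst s ⟨hs.1, hs.2.trans hty⟩
    have h1 : h s ^ 3 - ℓ = 3 * c * (s - e) := by rw [h0, hℓ]; ring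
    rw [h1, abs_mul, abs_mul, abs_of_pos (by linarith [hs.1] : 0 < s - e)]
    have h2 : s - e ≤ δ := by linarith [hs.2]
    have h3 : |(3 : ℝ)| = 3 := abs_of_pos (by norm_num)
    rw [h3]
    have h4 : δ * (4 * (3 * |c| + 1)) = |ℓ| := by
      rw [hδdef]; field_simp
    have h5 : 0 ≤ |c| := abs_nonneg c
    nlinarith [mul_le_mul_of_nonneg_left h2 h5]
  have hord : OrdConnected (h '' Icc e t) :=
    (ordConnected_Icc).image_hasDerivWithinAt
      (fun x hx => (hd x ⟨hx.1, hx.2.trans hty⟩).hasDerivWithinAt)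
  have hmem0 : (0 : ℝ) ∈ h '' Icc e t := ⟨e, ⟨le_rfl, het.le⟩, he⟩
  have hmemt : h t ∈ h '' Icc e t := ⟨t, ⟨het.le, le_rfl⟩, rfl⟩
  have hv : h t / 2 ∈ uIcc 0 (h t) := by
    rcases le_total 0 (h t) with h0 | h0
    · rw [uIcc_of_le h0]; constructor <;> linarith
    · rw [uIcc_of_ge h0]; constructor <;> linarith
  obtain ⟨s, hs, hsv⟩ := hord.uIcc_subset hmem0 hmemt hv
  have hht : h t ≠ 0 := hS t ⟨het, hty⟩
  have hs_ne : s ≠ e := by
    rintro rfl
    apply hht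
    rw [he] at hsv
    linarith
  have e1 := hest s ⟨lt_of_le_of_ne hs.1 (Ne.symm hs_ne), hs.2⟩
  have e2 := hest t ⟨het, le_rfl⟩
  rw [hsv] at e1
  have e3 : (h t / 2) ^ 3 = h t ^ 3 / 8 := by ring
  rw [e3] at e1
  rw [abs_lt] at e1 e2
  rcases lt_or_gt_of_ne hℓ0 with hneg | hpos
  · rw [abs_of_neg hneg] at e1 e2
    linarith [e1.1, e1.2, e2.1, e2.2]
  · rw [abs_of_pos hpos] at e1 e2
    linarith [e1.1, e1.2, e2.1, e2.2]

lemma nearest_left {a h : ℝ → ℝ} {c α β : ℝ} (hd : ∀ x ∈ Ioo α β, HasDerivAt a (h x) x)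
    (hh : ∀ x ∈ Ioo α β, h x ≠ 0 → ContinuousAt h x ∧ HasDerivAt (fun t => h t ^ 3) (3 * c) x)
    {x₀ y : ℝ} (hx₀ : x₀ ∈ Ioo α β) (hy : y ∈ Ioo α β) (hlt : x₀ < y) (h0 : h x₀ = 0)
    (hne : h y ≠ 0) : ∃ e ∈ Ioo α β, e < y ∧ h e = 0 ∧ h y ^ 3 = 3 * c * (y - e) := by
  set T : Set ℝ := {t | t ∈ Icc x₀ y ∧ h t = 0} with hT
  have hTne : T.Nonempty := ⟨x₀, ⟨le_rfl, hlt.le⟩, h0⟩
  have hTb : BddAbove T := ⟨y, fun t ht => ht.1.2⟩
  set e := sSup T with he
  have hxe : x₀ ≤ e := le_csSup hTb ⟨⟨le_rfl, hlt.le⟩, h0⟩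
  have hey : e ≤ y := csSup_le hTne (fun t ht => ht.1.2)
  have heI : e ∈ Ioo α β := ⟨lt_of_lt_of_le hx₀.1 hxe, lt_of_le_of_lt hey hy.2⟩
  have hesub : Icc e y ⊆ Ioo α β := fun t ht => ⟨lt_of_lt_of_le heI.1 ht.1, lt_of_le_of_lt ht.2 hy.2⟩
  have hez : h e = 0 := by
    by_contra hcon
    have hev : ∀ᶠ t in 𝓝 e, h t ≠ 0 := (hh e heI hcon).1.eventually_ne hcon
    have hcl : e ∈ closure T := csSup_mem_closure hTne hTb
    obtain ⟨t, ht1, ht2⟩ := (mem_closure_iff_frequently.1 hcl).and_eventually hev |>.exists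
    exact ht2 ht1.2
  have hlt' : e < y := by
    refine lt_of_le_of_ne hey ?_
    intro heq
    rw [heq] at hez
    exact hne hez
  have hS : ∀ t ∈ Ioc e y, h t ≠ 0 := by
    intro t ht hz
    have : t ≤ e := le_csSup hTb ⟨⟨hxe.trans ht.1.le, ht.2⟩, hz⟩
    exact absurd ht.1 (not_lt.2 this)
  refine ⟨e, heI, hlt', hez, ?_⟩
  exact J0 hlt' (fun x hx => hd x (hesub hx)) hS
    (fun x hx => (hh x (hesub ⟨hx.1.le, hx.2⟩) (hS x hx)).2) hez

lemma nearest_right {a h : ℝ → ℝ} {c α β : ℝ} (hd : ∀ x ∈ Ioo α β, HasDerivAt a (h x) x)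
    (hh : ∀ x ∈ Ioo α β, h x ≠ 0 → ContinuousAt h x ∧ HasDerivAt (fun t => h t ^ 3) (3 * c) x)
    {x₀ y : ℝ} (hx₀ : x₀ ∈ Ioo α β) (hy : y ∈ Ioo α β) (hlt : y < x₀) (h0 : h x₀ = 0)
    (hne : h y ≠ 0) : ∃ e ∈ Ioo α β, y < e ∧ h e = 0 ∧ h y ^ 3 = 3 * c * (y - e) := by
  have hmem : ∀ x ∈ Ioo (-β) (-α), -x ∈ Ioo α β := fun x hx => ⟨by linarith [hx.2], by linarith [hx.1]⟩
  have hneg : ∀ x : ℝ, HasDerivAt (fun t : ℝ => -t) (-1) x := fun x => hasDerivAt_neg x
  obtain ⟨e, he, hey, hez, hform⟩ := nearest_left (a := fun t => - a (-t)) (h := fun t => h (-t))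
    (c := -c) (α := -β) (β := -α)
    (fun x hx => by
      have h1 := HasDerivAt.comp x (hd (-x) (hmem x hx)) (hneg x)
      have h2 := h1.neg
      rw [show -(h (-x) * -1) = h (-x) by ring] at h2
      exact h2)
    (fun x hx hne' => by
      have hh' := hh (-x) (hmem x hx) hne'
      refine ⟨ContinuousAt.comp (f := fun t : ℝ => -t) (g := h) hh'.1 continuous_neg.continuousAt, ?_⟩
      have h1 := HasDerivAt.comp x hh'.2 (hneg x)
      rw [show 3 * c * (-1 : ℝ) = 3 * -c by ring] at h1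
      exact h1)
    (x₀ := -x₀) (y := -y)
    ⟨by linarith [hx₀.2], by linarith [hx₀.1]⟩ ⟨by linarith [hy.2], by linarith [hy.1]⟩
    (by linarith) (by simpa using h0) (by simpa using hne)
  refine ⟨-e, hmem e he, by linarith, hez, ?_⟩
  have : h (- -y) ^ 3 = 3 * -c * (-y - e) := hform
  rw [neg_neg] at this
  rw [this]
  ring

lemma zero_interval {a : ℝ → ℝ} {I : Set ℝ} {A B l r : ℝ} (hlr : l < r) (hsub : Ioo l r ⊆ I)
    (hd : ∀ x ∈ Ioo l r, HasDerivAt a 0 x) (hU : UpAt a I A) (hL : LoAt a I B) :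
    A ≤ 0 ∧ 0 ≤ B := by
  set m := (l + r) / 2 with hm
  have hmI : m ∈ Ioo l r := ⟨by linarith, by linarith⟩
  have hconst : ∀ t ∈ Ioo l r, a t = a m := by
    intro t ht
    rcases le_total t m with h1 | h1
    · exact const_on_segment h1 (fun x hx => hd x ⟨lt_of_lt_of_le ht.1 hx.1, lt_of_le_of_lt hx.2 hmI.2⟩)
    · exact (const_on_segment h1 (fun x hx => hd x ⟨lt_of_lt_of_le hmI.1 hx.1, lt_of_le_of_lt hx.2 ht.2⟩)).symm
  have hQ : ∀ y, Q m 0 0 y = 0 := by intro y; simp [Q]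
  have hV : Val m 0 0 m = 0 := by simp [Val]
  have hnb : Ioo l r ∈ 𝓝 m := Ioo_mem_nhds hmI.1 hmI.2
  have hmax : IsLocalMax (fun y => a y - Q m 0 0 y) m := by
    filter_upwards [hnb] with t ht
    simp only [hQ, hconst t ht, le_refl]
  have hmin : IsLocalMin (fun y => a y - Q m 0 0 y) m := by
    filter_upwards [hnb] with t ht
    simp only [hQ, hconst t ht, le_refl]
  have h1 := hU m 0 0 m (hsub hmI) hmax
  have h2 := hL m 0 0 m (hsub hmI) hmin
  rw [hV] at h1 h2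
  exact ⟨h1, h2⟩

/-- The lower touching constant is at least the upper one. -/
lemma A_le_B {a h : ℝ → ℝ} {A B α β : ℝ} (hαβ : α < β) (hd : ∀ x ∈ Ioo α β, HasDerivAt a (h x) x)
    (hU : UpAt a (Ioo α β) A) (hL : LoAt a (Ioo α β) B) : A ≤ B := by
  by_contra hlt
  have hlt := not_le.1 hlt
  by_cases hne : ∃ x₀ ∈ Ioo α β, h x₀ ≠ 0
  · obtain ⟨x₀, hx₀, hp⟩ := hne
    have hp2 : 0 < h x₀ ^ 2 := by positivity
    set γ₁ := B + (A - B) / 3 with hγ₁
    set γ₂ := B + 2 * (A - B) / 3 with hγ₂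
    have h1 := core_lo isOpen_Ioo (γ := γ₁) hx₀ hd hL (by rw [hγ₁]; linarith) (γ₁ / h x₀ ^ 2)
      (by field_simp)
    have h2 := core_up isOpen_Ioo (γ := γ₂) hx₀ hd hU (by rw [hγ₂]; linarith) (γ₂ / h x₀ ^ 2)
      (by field_simp)
    have h3 : ∀ᶠ x in 𝓝[>] x₀, _ := (h1.and h2).filter_mono nhdsWithin_le_nhds
    obtain ⟨x, hx, hgt⟩ := (h3.and self_mem_nhdsWithin).exists
    have a1 := hx.1.1 hgt
    have a2 := hx.2.1 hgt
    have hgt' : 0 < x - x₀ := sub_pos.2 hgt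
    have hκ : γ₁ / h x₀ ^ 2 < γ₂ / h x₀ ^ 2 :=
      div_lt_div_of_pos_right (by rw [hγ₁, hγ₂]; linarith) hp2
    nlinarith [mul_lt_mul_of_pos_right hκ hgt']
  · have hall : ∀ x ∈ Ioo α β, h x = 0 := by
      intro x hx
      by_contra hcon
      exact hne ⟨x, hx, hcon⟩
    have := zero_interval hαβ (subset_refl _)
      (fun x hx => by
        have := hd x hx
        rwa [hall x hx] at this) hU hL
    linarith [this.1, this.2]

/-- One-dimensional classification. -/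
theorem main1D {a : ℝ → ℝ} {c α β : ℝ} (hαβ : α < β) (hdiff : ∀ x ∈ Ioo α β, DifferentiableAt ℝ a x)
    (hU : UpAt a (Ioo α β) c) (hL : LoAt a (Ioo α β) c) :
    ∃ e, (∀ x ∈ Ioo α β, deriv a x ^ 3 = 3 * c * x + e) ∧ ContinuousOn (deriv a) (Ioo α β) := by
  set h := deriv a with hh_def
  have hd : ∀ x ∈ Ioo α β, HasDerivAt a (h x) x := fun x hx => (hdiff x hx).hasDerivAt
  have hder : ∀ x ∈ Ioo α β, h x ≠ 0 → HasDerivAt h (c / h x ^ 2) x :=
    fun x hx hp => deriv_of_ne isOpen_Ioo hx hd hU hL hp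
  have hh : ∀ x ∈ Ioo α β, h x ≠ 0 → ContinuousAt h x ∧ HasDerivAt (fun t => h t ^ 3) (3 * c) x :=
    fun x hx hp => ⟨(hder x hx hp).continuousAt, cube_deriv_of_ne hp (hder x hx hp)⟩
  have hform : ∃ e, ∀ x ∈ Ioo α β, h x ^ 3 = 3 * c * x + e := by
    by_cases hz : ∃ x ∈ Ioo α β, h x = 0
    · obtain ⟨xs, hxs, hxs0⟩ := hz
      by_cases hc : c = 0
      · -- the derivative vanishes identically
        refine ⟨0, fun y hy => ?_⟩
        have : h y = 0 := by
          by_contra hne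
          rcases lt_trichotomy xs y with hlt | rfl | hgt
          · obtain ⟨e, _, _, _, hf⟩ := nearest_left hd hh hxs hy hlt hxs0 hne
            rw [hc] at hf
            exact pow_ne_zero 3 hne (by rw [hf]; ring)
          · exact hne hxs0
          · obtain ⟨e, _, _, _, hf⟩ := nearest_right hd hh hxs hy hgt hxs0 hne
            rw [hc] at hf
            exact pow_ne_zero 3 hne (by rw [hf]; ring)
        rw [this, hc]; ring
      · -- a single zero
        have key : ∀ l r, l ∈ Ioo α β → r ∈ Ioo α β → l < r → h l = 0 → h r = 0 → False := by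
          intro l r hl hr hlr hl0 hr0
          have hsub : Ioo l r ⊆ Ioo α β := fun t ht => ⟨hl.1.trans ht.1, ht.2.trans hr.2⟩
          have hall : ∀ t ∈ Ioo l r, h t = 0 := by
            intro t ht
            by_contra hne
            obtain ⟨e₁, _, he₁, _, hf₁⟩ := nearest_left hd hh hl (hsub ht) ht.1 hl0 hne
            obtain ⟨e₂, _, he₂, _, hf₂⟩ := nearest_right hd hh hr (hsub ht) ht.2 hr0 hne
            have h1 : c * (e₂ - e₁) = 0 := by
              have : 3 * c * (t - e₁) = 3 * c * (t - e₂) := by rw [← hf₁, ← hf₂]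
              linarith
            rcases mul_eq_zero.1 h1 with h2 | h2
            · exact hc h2
            · linarith
          have := zero_interval hlr hsub
            (fun x hx => by
              have := hd x (hsub hx)
              rwa [hall x hx] at this) hU hL
          exact hc (le_antisymm this.1 this.2)
        have huniq : ∀ y ∈ Ioo α β, h y = 0 → y = xs := by
          intro y hy hy0
          rcases lt_trichotomy y xs with hlt | heq | hgt
          · exact (key y xs hy hxs hlt hy0 hxs0).elim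
          · exact heq
          · exact (key xs y hxs hy hgt hxs0 hy0).elim
        refine ⟨-(3 * c * xs), fun y hy => ?_⟩
        by_cases hy0 : h y = 0
        · have := huniq y hy hy0
          rw [hy0, this]; ring
        · rcases lt_trichotomy xs y with hlt | heq | hgt
          · obtain ⟨e, he, _, hez, hf⟩ := nearest_left hd hh hxs hy hlt hxs0 hy0
            rw [hf, huniq e he hez]; ring
          · exact absurd (heq ▸ hxs0) hy0
          · obtain ⟨e, he, _, hez, hf⟩ := nearest_right hd hh hxs hy hgt hxs0 hy0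
            rw [hf, huniq e he hez]; ring
    · -- no zero at all
      have hnz : ∀ x ∈ Ioo α β, h x ≠ 0 := by
        intro x hx h0
        exact hz ⟨x, hx, h0⟩
      have hF : ∀ x ∈ Ioo α β, HasDerivAt (fun s => h s ^ 3 - 3 * c * s) 0 x := by
        intro x hx
        have h1 := (hh x hx (hnz x hx)).2
        have h2 := (hasDerivAt_id x).const_mul (3 * c)
        have h3 := h1.fun_sub h2
        refine h3.congr_deriv ?_
        ring
      set m := (α + β) / 2 with hm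
      have hmI : m ∈ Ioo α β := ⟨by linarith, by linarith⟩
      refine ⟨h m ^ 3 - 3 * c * m, fun y hy => ?_⟩
      rcases le_total y m with h1 | h1
      · have : h y ^ 3 - 3 * c * y = h m ^ 3 - 3 * c * m :=
          const_on_segment h1 (fun x hx => hF x ⟨lt_of_lt_of_le hy.1 hx.1, lt_of_le_of_lt hx.2 hmI.2⟩)
        linarith
      · have : h m ^ 3 - 3 * c * m = h y ^ 3 - 3 * c * y :=
          const_on_segment h1 (fun x hx => hF x ⟨lt_of_lt_of_le hmI.1 hx.1, lt_of_le_of_lt hx.2 hy.2⟩)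
        linarith
  obtain ⟨e, he⟩ := hform
  refine ⟨e, he, ?_⟩
  intro x hx
  apply ContinuousAt.continuousWithinAt
  by_cases hx0 : h x = 0
  · rw [Metric.continuousAt_iff]
    intro ε hε
    have hcont : Continuous (fun t : ℝ => 3 * c * t + e) := by fun_prop
    have hx3 : 3 * c * x + e = 0 := by rw [← he x hx, hx0]; ring
    have hev : ∀ᶠ t in 𝓝 x, |3 * c * t + e| < ε ^ 3 := by
      have h1 : ContinuousAt (fun t : ℝ => |3 * c * t + e|) x := hcont.abs.continuousAt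
      have h2 : |3 * c * x + e| < ε ^ 3 := by rw [hx3, abs_zero]; positivity
      exact h1.eventually (gt_mem_nhds h2)
    have hev2 : ∀ᶠ t in 𝓝 x, t ∈ Ioo α β := Ioo_mem_nhds hx.1 hx.2
    obtain ⟨δ, hδ, hball⟩ := Metric.eventually_nhds_iff.1 (hev.and hev2)
    refine ⟨δ, hδ, fun t ht => ?_⟩
    obtain ⟨h1, h2⟩ := hball ht
    rw [Real.dist_eq, hx0, sub_zero]
    rw [← he t h2, abs_pow] at h1
    exact lt_of_pow_lt_pow_left₀ 3 hε.le h1
  · exact (hh x hx hx0).1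

/-! Touching points exist -/

lemma exists_up {a : ℝ → ℝ} {α β : ℝ} (hαβ : α < β) (hc : ContinuousOn a (Ioo α β)) :
    ∃ x₀ p κ z, z ∈ Ioo α β ∧ IsLocalMax (fun y => a y - Q x₀ p κ y) z := by
  set m := (α + β) / 2 with hm
  set r := (β - α) / 4 with hr
  have hr0 : 0 < r := by rw [hr]; linarith
  set κ := 2 * (|a (m - r) - a m| + |a (m + r) - a m| + 1) / r ^ 2 with hκ
  have hsub : Icc (m - r) (m + r) ⊆ Ioo α β := by
    intro t ht
    constructor
    · have := ht.1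
      rw [hm, hr] at this
      linarith
    · have := ht.2
      rw [hm, hr] at this
      linarith
  have hQc : Continuous (Q m 0 κ) := by unfold Q; fun_prop
  have hG : ContinuousOn (fun y => a y - Q m 0 κ y) (Icc (m - r) (m + r)) :=
    (hc.mono hsub).sub hQc.continuousOn
  obtain ⟨z, hz, hmax⟩ := isCompact_Icc.exists_isMaxOn (nonempty_Icc.2 (by linarith)) hG
  have hmm : m ∈ Icc (m - r) (m + r) := ⟨by linarith, by linarith⟩
  have hQr : κ * r ^ 2 / 2 = |a (m - r) - a m| + |a (m + r) - a m| + 1 := by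
    rw [hκ]; field_simp
  have hQm : Q m 0 κ m = 0 := by simp [Q]
  have hQl : Q m 0 κ (m - r) = κ * r ^ 2 / 2 := by simp only [Q]; ring
  have hQu : Q m 0 κ (m + r) = κ * r ^ 2 / 2 := by simp only [Q]; ring
  have hzm : a m - Q m 0 κ m ≤ a z - Q m 0 κ z := hmax hmm
  rw [hQm, sub_zero] at hzm
  have hzl : z ≠ m - r := by
    intro hz'
    rw [hz', hQl, hQr] at hzm
    have := le_abs_self (a (m - r) - a m)
    have := abs_nonneg (a (m + r) - a m)
    linarith
  have hzu : z ≠ m + r := by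
    intro hz'
    rw [hz', hQu, hQr] at hzm
    have := le_abs_self (a (m + r) - a m)
    have := abs_nonneg (a (m - r) - a m)
    linarith
  have hz' : z ∈ Ioo (m - r) (m + r) :=
    ⟨lt_of_le_of_ne hz.1 (Ne.symm hzl), lt_of_le_of_ne hz.2 hzu⟩
  exact ⟨m, 0, κ, z, hsub ⟨hz'.1.le, hz'.2.le⟩, hmax.isLocalMax (Icc_mem_nhds hz'.1 hz'.2)⟩

lemma exists_lo {a : ℝ → ℝ} {α β : ℝ} (hαβ : α < β) (hc : ContinuousOn a (Ioo α β)) :
    ∃ x₀ p κ z, z ∈ Ioo α β ∧ IsLocalMin (fun y => a y - Q x₀ p κ y) z := by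
  obtain ⟨x₀, p, κ, z, hz, hmax⟩ := exists_up (a := fun y => - a y) hαβ hc.neg
  refine ⟨x₀, -p, -κ, z, hz, ?_⟩
  have : (fun y => a y - Q x₀ (-p) (-κ) y) = fun y => -((fun y => - a y - Q x₀ p κ y) y) := by
    funext y; simp only [Q]; ring
  rw [this]
  exact hmax.neg

/-! The test functions in `d` variables -/

section Multi

variable {d : ℕ}

lemma test_hasFDerivAt (x₀ p κ : Fin d → ℝ) (y : Fin d → ℝ) :
    HasFDerivAt (fun x : Fin d → ℝ => ∑ k, Q (x₀ k) (p k) (κ k) (x k))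
      (∑ k, (p k + κ k * (y k - x₀ k)) • (ContinuousLinearMap.proj k : (Fin d → ℝ) →L[ℝ] ℝ)) y := by
  apply HasFDerivAt.fun_sum
  intro k _
  have hp : HasFDerivAt (fun x : Fin d → ℝ => x k) (ContinuousLinearMap.proj k : (Fin d → ℝ) →L[ℝ] ℝ) y :=
    (ContinuousLinearMap.proj k : (Fin d → ℝ) →L[ℝ] ℝ).hasFDerivAt
  exact HasDerivAt.comp_hasFDerivAt y (Q_hasDerivAt (x₀ k) (p k) (κ k) (y k)) hp

lemma test_fderiv (x₀ p κ : Fin d → ℝ) (y : Fin d → ℝ) (i : Fin d) :
    fderiv ℝ (fun x : Fin d → ℝ => ∑ k, Q (x₀ k) (p k) (κ k) (x k)) y (Pi.single i 1)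
      = p i + κ i * (y i - x₀ i) := by
  rw [(test_hasFDerivAt x₀ p κ y).fderiv]
  simp [Pi.single_apply]

lemma test_contDiff (x₀ p κ : Fin d → ℝ) :
    ContDiff ℝ 2 (fun x : Fin d → ℝ => ∑ k, Q (x₀ k) (p k) (κ k) (x k)) := by
  apply ContDiff.sum
  intro k _
  unfold Q
  fun_prop

lemma test_infLap (x₀ p κ : Fin d → ℝ) (z : Fin d → ℝ) :
    infLap (fun x : Fin d → ℝ => ∑ k, Q (x₀ k) (p k) (κ k) (x k)) z
      = ∑ i, Val (x₀ i) (p i) (κ i) (z i) := by
  unfold infLap Val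
  refine Finset.sum_congr rfl (fun i _ => ?_)
  have hfun : (fun y => fderiv ℝ (fun x : Fin d → ℝ => ∑ k, Q (x₀ k) (p k) (κ k) (x k)) y
      (Pi.single i 1)) = fun y => p i + κ i * (y i - x₀ i) := by
    funext y; exact test_fderiv x₀ p κ y i
  rw [hfun]
  have hd2 : HasFDerivAt (fun y : Fin d → ℝ => p i + κ i * (y i - x₀ i))
      (κ i • (ContinuousLinearMap.proj i : (Fin d → ℝ) →L[ℝ] ℝ)) z := by
    have hp : HasFDerivAt (fun x : Fin d → ℝ => x i) (ContinuousLinearMap.proj i : (Fin d → ℝ) →L[ℝ] ℝ) z :=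
      (ContinuousLinearMap.proj i : (Fin d → ℝ) →L[ℝ] ℝ).hasFDerivAt
    have h1 := (hp.sub_const (x₀ i)).const_mul (κ i)
    exact h1.const_add (p i)
  rw [hd2.fderiv]
  rw [Finset.sum_eq_single i]
  · rw [test_fderiv]
    have h3 : (κ i • (ContinuousLinearMap.proj i : (Fin d → ℝ) →L[ℝ] ℝ)) (Pi.single i 1) = κ i := by
      simp
    rw [h3]
    ring
  · intro j _ hji
    simp [hji]
  · simp

lemma touch_max {a : Fin d → ℝ → ℝ} {x₀ p κ z : Fin d → ℝ}
    (h : ∀ i, IsLocalMax (fun y => a i y - Q (x₀ i) (p i) (κ i) y) (z i)) :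
    IsLocalMax (fun x : Fin d → ℝ => (∑ i, a i (x i)) - ∑ k, Q (x₀ k) (p k) (κ k) (x k)) z := by
  have h1 : ∀ i, ∀ᶠ x : Fin d → ℝ in 𝓝 z,
      a i (x i) - Q (x₀ i) (p i) (κ i) (x i) ≤ a i (z i) - Q (x₀ i) (p i) (κ i) (z i) := by
    intro i
    exact ((continuous_apply i).tendsto z).eventually (h i)
  filter_upwards [eventually_all.2 h1] with x hx
  simp only [← Finset.sum_sub_distrib]
  exact Finset.sum_le_sum (fun i _ => hx i)

lemma touch_min {a : Fin d → ℝ → ℝ} {x₀ p κ z : Fin d → ℝ}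
    (h : ∀ i, IsLocalMin (fun y => a i y - Q (x₀ i) (p i) (κ i) y) (z i)) :
    IsLocalMin (fun x : Fin d → ℝ => (∑ i, a i (x i)) - ∑ k, Q (x₀ k) (p k) (κ k) (x k)) z := by
  have h1 : ∀ i, ∀ᶠ x : Fin d → ℝ in 𝓝 z,
      a i (z i) - Q (x₀ i) (p i) (κ i) (z i) ≤ a i (x i) - Q (x₀ i) (p i) (κ i) (x i) := by
    intro i
    exact ((continuous_apply i).tendsto z).eventually (h i)
  filter_upwards [eventually_all.2 h1] with x hx
  simp only [← Finset.sum_sub_distrib]
  exact Finset.sum_le_sum (fun i _ => hx i)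

end Multi

/-- A finite family of nonempty sets of reals such that all sums of representatives are
nonnegative has lower bounds with nonnegative sum. -/
lemma sum_inf {ι : Type*} [Fintype ι] [DecidableEq ι] (V : ι → Set ℝ) (hne : ∀ i, (V i).Nonempty)
    (hsum : ∀ v : ι → ℝ, (∀ i, v i ∈ V i) → 0 ≤ ∑ i, v i) :
    ∃ A : ι → ℝ, (∀ i, ∀ v ∈ V i, A i ≤ v) ∧ 0 ≤ ∑ i, A i := by
  choose v₀ hv₀ using hne
  have hbdd : ∀ i, BddBelow (V i) := by
    intro i
    refine ⟨-∑ j ∈ Finset.univ.erase i, v₀ j, fun v hv => ?_⟩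
    have h1 := hsum (Function.update v₀ i v) (by
      intro j
      by_cases hj : j = i
      · subst hj; simpa using hv
      · simpa [Function.update_of_ne hj] using hv₀ j)
    rw [← Finset.add_sum_erase _ _ (Finset.mem_univ i)] at h1
    have h2 : ∑ j ∈ Finset.univ.erase i, Function.update v₀ i v j
        = ∑ j ∈ Finset.univ.erase i, v₀ j := by
      refine Finset.sum_congr rfl (fun j hj => ?_)
      rw [Function.update_of_ne (Finset.ne_of_mem_erase hj)]
    rw [h2, Function.update_self] at h1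
    linarith
  refine ⟨fun i => sInf (V i), fun i v hv => csInf_le (hbdd i) hv, ?_⟩
  by_contra hneg
  have hneg := not_le.1 hneg
  set n : ℝ := (Fintype.card ι : ℝ) + 1 with hn
  have hnpos : 0 < n := by positivity
  set S := ∑ i, sInf (V i) with hS
  set ε := (-S) / n with hε
  have hεpos : 0 < ε := div_pos (by linarith) hnpos
  have hpick : ∀ i, ∃ v ∈ V i, v < sInf (V i) + ε :=
    fun i => Real.lt_sInf_add_pos ⟨v₀ i, hv₀ i⟩ hεpos
  choose v hv hvlt using hpick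
  have h1 := hsum v hv
  have h2 : ∑ i, v i ≤ ∑ i, (sInf (V i) + ε) := Finset.sum_le_sum (fun i _ => (hvlt i).le)
  rw [Finset.sum_add_distrib, Finset.sum_const, Finset.card_univ, nsmul_eq_mul] at h2
  have h3 : ε * n = -S := by rw [hε]; field_simp
  have h4 : ((Fintype.card ι : ℝ)) * ε = ε * n - ε := by rw [hn]; ring
  linarith

/-- Classification of additively separated infinity-harmonic functions on a box, assuming
differentiability of the summands. -/
theorem separated_classification {d : ℕ} (α β : Fin d → ℝ) (hαβ : ∀ i, α i < β i)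
    (a : Fin d → ℝ → ℝ) (hdiff : ∀ i, DifferentiableOn ℝ (a i) (Ioo (α i) (β i)))
    (hu : IsInfinityHarmonic (Set.pi univ fun i => Ioo (α i) (β i)) (fun x => ∑ i, a i (x i))) :
    ∃ c e : Fin d → ℝ, ∑ i, c i = 0 ∧ ∀ i,
      (∀ t ∈ Ioo (α i) (β i), deriv (a i) t ^ 3 = 3 * c i * t + e i) ∧
      ContDiffOn ℝ 1 (a i) (Ioo (α i) (β i)) := by
  have hdiffAt : ∀ i, ∀ x ∈ Ioo (α i) (β i), DifferentiableAt ℝ (a i) x :=
    fun i x hx => (hdiff i x hx).differentiableAt (Ioo_mem_nhds hx.1 hx.2)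
  have hcont : ∀ i, ContinuousOn (a i) (Ioo (α i) (β i)) := fun i => (hdiff i).continuousOn
  -- value sets
  let V : Fin d → Set ℝ := fun i => {v | ∃ x₀ p κ z, z ∈ Ioo (α i) (β i) ∧
    IsLocalMax (fun y => a i y - Q x₀ p κ y) z ∧ v = Val x₀ p κ z}
  let W : Fin d → Set ℝ := fun i => {v | ∃ x₀ p κ z, z ∈ Ioo (α i) (β i) ∧
    IsLocalMin (fun y => a i y - Q x₀ p κ y) z ∧ -v = Val x₀ p κ z}
  have hVne : ∀ i, (V i).Nonempty := by
    intro i
    obtain ⟨x₀, p, κ, z, hz, hmax⟩ := exists_up (hαβ i) (hcont i)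
    exact ⟨_, x₀, p, κ, z, hz, hmax, rfl⟩
  have hWne : ∀ i, (W i).Nonempty := by
    intro i
    obtain ⟨x₀, p, κ, z, hz, hmin⟩ := exists_lo (hαβ i) (hcont i)
    exact ⟨- Val x₀ p κ z, x₀, p, κ, z, hz, hmin, by simp⟩
  have hVsum : ∀ v : Fin d → ℝ, (∀ i, v i ∈ V i) → 0 ≤ ∑ i, v i := by
    intro v hv
    choose x₀ p κ z hz hmax hval using hv
    have h1 := (hu.2 _ (test_contDiff x₀ p κ) z (fun i _ => hz i)).1 (touch_max hmax)
    rw [test_infLap] at h1
    rw [Finset.sum_congr rfl (fun i _ => hval i)]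
    exact h1
  have hWsum : ∀ v : Fin d → ℝ, (∀ i, v i ∈ W i) → 0 ≤ ∑ i, v i := by
    intro v hv
    choose x₀ p κ z hz hmin hval using hv
    have h1 := (hu.2 _ (test_contDiff x₀ p κ) z (fun i _ => hz i)).2 (touch_min hmin)
    rw [test_infLap] at h1
    have h2 : ∑ i, - v i = ∑ i, Val (x₀ i) (p i) (κ i) (z i) :=
      Finset.sum_congr rfl (fun i _ => hval i)
    rw [Finset.sum_neg_distrib] at h2
    linarith
  obtain ⟨A, hA, hAsum⟩ := sum_inf V hVne hVsum
  obtain ⟨A', hA', hA'sum⟩ := sum_inf W hWne hWsum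
  have hUi : ∀ i, UpAt (a i) (Ioo (α i) (β i)) (A i) :=
    fun i x₀ p κ z hz hmax => hA i _ ⟨x₀, p, κ, z, hz, hmax, rfl⟩
  have hLi : ∀ i, LoAt (a i) (Ioo (α i) (β i)) (- A' i) := by
    intro i x₀ p κ z hz hmin
    have := hA' i (- Val x₀ p κ z) ⟨x₀, p, κ, z, hz, hmin, by simp⟩
    linarith
  have hle : ∀ i, A i ≤ - A' i := fun i =>
    A_le_B (hαβ i) (fun x hx => (hdiffAt i x hx).hasDerivAt) (hUi i) (hLi i)
  -- hence equality
  have hsum0 : ∑ i, (- A' i - A i) = 0 := by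
    apply le_antisymm
    · rw [Finset.sum_sub_distrib, Finset.sum_neg_distrib]; linarith
    · exact Finset.sum_nonneg (fun i _ => by linarith [hle i])
  have heq : ∀ i, - A' i - A i = 0 :=
    fun i => (Finset.sum_eq_zero_iff_of_nonneg (fun i _ => by linarith [hle i])).1 hsum0 i
      (Finset.mem_univ i)
  have hLi' : ∀ i, LoAt (a i) (Ioo (α i) (β i)) (A i) := by
    intro i
    have : - A' i = A i := by linarith [heq i]
    rw [← this]
    exact hLi i
  have hmain := fun i => main1D (hαβ i) (hdiffAt i) (hUi i) (hLi' i)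
  choose e he hec using hmain
  refine ⟨A, e, ?_, fun i => ⟨he i, ?_⟩⟩
  · apply le_antisymm
    · have h1 : ∑ i, A i = ∑ i, - A' i := Finset.sum_congr rfl (fun i _ => by linarith [heq i])
      rw [h1, Finset.sum_neg_distrib]
      linarith
    · exact hAsum
  · have h1 : ContDiffOn ℝ 0 (deriv (a i)) (Ioo (α i) (β i)) := contDiffOn_zero.2 (hec i)
    exact (contDiffOn_succ_iff_deriv_of_isOpen isOpen_Ioo).2 ⟨hdiff i, by simp, h1⟩

end Vale.Agent.P080
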